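import Vale.Agent.P153H.Main
import Vale.Agent.P153E.Main

open MeasureTheory Vale.Agent.P153 Vale.Agent.P153E Vale.Agent.P153H

theorem Vale.Agent.Results.P153.Half.result :
    (∃ P : Measure Cfg, IsProbabilityMeasure P ∧ IsIter P ∧ Gibbs P) ∧
    ∀ (P : Measure Cfg) [IsProbabilityMeasure P], IsIter P ∨ IsLimit P →
      ∃ σ : ℝ, 0 ≤ σ ∧ ToGFF P σ ∧ ToGFFH P σ ∧ LogVar P σ :=
  ⟨exists_iter.imp fun P h => ⟨h.1, h.2, @gibbs_of_iter P h.1 h.2⟩, fun P _ h =>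
    main_half P (h.elim good_of_iter good_of_lim)⟩
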