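import Vale.Agent.P153E.Main

open MeasureTheory Vale.Agent.P153 Vale.Agent.P153E

theorem Vale.Agent.Results.P153.Uncond.result :
    (∃ P : Measure Cfg, IsProbabilityMeasure P ∧ IsIter P) ∧
    ∀ (P : Measure Cfg) [IsProbabilityMeasure P], IsIter P → Gibbs P ∧
      (∀ (y : ℤ × ℤ) (S : Finset (ℤ × ℤ)) (η : Cfg),
        P.real {k | ∀ x ∈ S, k (x + y) - k y = η x} = P.real {k | ∀ x ∈ S, k x - k 0 = η x}) ∧
      ∃ σ : ℝ, 0 ≤ σ ∧ ToGFF P σ ∧ LogVar P σ :=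
  ⟨exists_iter, fun P _ h =>
    ⟨gibbs_of_iter h, shift_of_good (good_of_iter h), main_of_good P (good_of_iter h)⟩⟩
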